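import Vale.Agent.P073.R2.H580.Defs

/-!
# P073: homeomorphisms whose first two components are smooth submersions across the vertical
direction are fibrewise monotone up to a reflection
-/

set_option autoImplicit false

namespace Vale.Agent.P073.R2.H524

open MeasureTheory Set Filter Topology Vale.Agent.P073.St Vale.Agent.P073.R2.H580
open scoped ContDiff

/-- the vertical unit vector -/
def e2 : V := fun i => if i = 2 then 1 else 0

theorem eq_smul_e2 {h : V} (h0 : ∀ j ≠ (2 : Fin 3), h j = 0) : h = h 2 • e2 := by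
  ext i
  by_cases hi : i = 2
  · subst hi; simp [e2]
  · simp [e2, hi, h0 i hi]

/-- (A) the derivative in the vertical direction vanishes -/
theorem fderiv_e2 {f : V → V} {x : V}
    (hk : ∀ h : V, (∀ j ≠ (2 : Fin 3), fderiv ℝ (fun z => f z j) x h = 0) →
      ∀ j ≠ (2 : Fin 3), h j = 0) :
    ∀ j ≠ (2 : Fin 3), fderiv ℝ (fun z => f z j) x e2 = 0 := by
  obtain ⟨l0, hl0⟩ : ∃ l : V →L[ℝ] ℝ, l = fderiv ℝ (fun z => f z 0) x := ⟨_, rfl⟩
  obtain ⟨l1, hl1⟩ : ∃ l : V →L[ℝ] ℝ, l = fderiv ℝ (fun z => f z 1) x := ⟨_, rfl⟩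
  have h1 : LinearMap.ker (LinearMap.prod (l0 : V →ₗ[ℝ] ℝ) (l1 : V →ₗ[ℝ] ℝ)) ≠ ⊥ := by
    apply LinearMap.ker_ne_bot_of_finrank_lt
    simp
  obtain ⟨h, hh, hne⟩ := Submodule.exists_mem_ne_zero_of_ne_bot h1
  rw [LinearMap.mem_ker] at hh
  have hh0 : l0 h = 0 := congrArg Prod.fst hh
  have hh1 : l1 h = 0 := congrArg Prod.snd hh
  have h2 : ∀ j ≠ (2 : Fin 3), fderiv ℝ (fun z => f z j) x h = 0 := by
    intro j hj
    fin_cases j
    · show fderiv ℝ (fun z => f z 0) x h = 0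
      rw [← hl0]; exact hh0
    · show fderiv ℝ (fun z => f z 1) x h = 0
      rw [← hl1]; exact hh1
    · exact absurd rfl hj
  have h3 := eq_smul_e2 (hk h h2)
  have h4 : h 2 ≠ 0 := by
    intro h5
    rw [h5, zero_smul] at h3
    exact hne h3
  intro j hj
  have h6 := h2 j hj
  rw [h3, map_smul, smul_eq_mul] at h6
  rcases mul_eq_zero.mp h6 with h7 | h7
  · exact absurd h7 h4
  · exact h7

/-- (B) the smooth components are constant on vertical segments -/
theorem const_vert {U : Set V} (hU : IsOpen U) {f : V → V}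
    (hs : ∀ j ≠ (2 : Fin 3), ContDiffOn ℝ ∞ (fun x => f x j) U)
    (hk : ∀ x ∈ U, ∀ h : V, (∀ j ≠ (2 : Fin 3), fderiv ℝ (fun z => f z j) x h = 0) →
      ∀ j ≠ (2 : Fin 3), h j = 0) {x y : V} (hxy : ∀ j ≠ (2 : Fin 3), x j = y j)
    (hseg : ∀ t ∈ Icc (0:ℝ) 1, x + t • (y - x) ∈ U) (j : Fin 3) (hj : j ≠ 2) :
    f x j = f y j := by
  have h1 : y - x = (y - x) 2 • e2 := eq_smul_e2 (fun j hj => by
    rw [Pi.sub_apply, hxy j hj, sub_self])
  have hder : ∀ t ∈ Icc (0:ℝ) 1, HasDerivAt (fun t : ℝ => f (x + t • (y - x)) j) 0 t := by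
    intro t ht
    have hz := hseg t ht
    have h2 : DifferentiableAt ℝ (fun z => f z j) (x + t • (y - x)) :=
      ((hs j hj).contDiffAt (hU.mem_nhds hz)).differentiableAt (by simp)
    have h3 : HasDerivAt (fun t : ℝ => x + t • (y - x)) (y - x) t := by
      have h4 : HasDerivAt (fun t : ℝ => t • (y - x)) ((1:ℝ) • (y - x)) t :=
        (hasDerivAt_id t).smul_const (y - x)
      rw [one_smul] at h4
      exact h4.const_add x
    have h5 := h2.hasFDerivAt.comp_hasDerivAt t h3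
    have h6 : fderiv ℝ (fun z => f z j) (x + t • (y - x)) (y - x) = 0 := by
      rw [h1, map_smul, ← h1, fderiv_e2 (hk _ hz) j hj, smul_zero]
    rw [h6] at h5
    exact h5
  have h7 := constant_of_has_deriv_right_zero (a := (0:ℝ)) (b := 1)
    (f := fun t : ℝ => f (x + t • (y - x)) j)
    (fun t ht => (hder t ht).continuousAt.continuousWithinAt)
    (fun t ht => (hder t ⟨ht.1, ht.2.le⟩).hasDerivWithinAt) 1 ⟨zero_le_one, le_rfl⟩
  simp only [one_smul, zero_smul, add_zero, add_sub_cancel] at h7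
  exact h7.symm

/-- vertical monotonicity near a point, with the sign `s` -/
def Mon (f : V → V) (s : ℝ) (a : V) : Prop :=
  ∃ r : ℝ, 0 < r ∧ ∀ x ∈ Metric.ball a r, ∀ y ∈ Metric.ball a r,
    (∀ j ≠ (2 : Fin 3), x j = y j) → x 2 < y 2 → 0 < s * (f y 2 - f x 2)

theorem mon_or {U W : Set V} (hU : IsOpen U) {f : V → V} (hf : IsHomeo U W f)
    (hs : ∀ j ≠ (2 : Fin 3), ContDiffOn ℝ ∞ (fun x => f x j) U)
    (hk : ∀ x ∈ U, ∀ h : V, (∀ j ≠ (2 : Fin 3), fderiv ℝ (fun z => f z j) x h = 0) →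
      ∀ j ≠ (2 : Fin 3), h j = 0) {a : V} (ha : a ∈ U) : Mon f 1 a ∨ Mon f (-1) a := by
  obtain ⟨g, hinv, hfc, -⟩ := hf
  obtain ⟨r, hr, hball⟩ := Metric.isOpen_iff.mp hU a ha
  obtain ⟨K, hK⟩ : ∃ K : Set (V × V), K = {z | z.1 ∈ Metric.ball a r ∧ z.2 ∈ Metric.ball a r ∧
    (∀ j ≠ (2 : Fin 3), z.1 j = z.2 j) ∧ z.1 2 < z.2 2} := ⟨_, rfl⟩
  have hconv : Convex ℝ K := by
    rw [hK]
    intro z hz w hw α β hα hβ hαβ
    obtain ⟨z1, z2, z3, z4⟩ := hz
    obtain ⟨w1, w2, w3, w4⟩ := hw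
    refine ⟨convex_ball a r z1 w1 hα hβ hαβ, convex_ball a r z2 w2 hα hβ hαβ, ?_, ?_⟩
    · intro j hj
      show α * z.1 j + β * w.1 j = α * z.2 j + β * w.2 j
      rw [z3 j hj, w3 j hj]
    · show α * z.1 2 + β * w.1 2 < α * z.2 2 + β * w.2 2
      rcases hα.lt_or_eq with h | h
      · have h1 := mul_lt_mul_of_pos_left z4 h
        have h2 := mul_le_mul_of_nonneg_left w4.le hβ
        linarith
      · have hβ1 : β = 1 := by linarith
        rw [← h, hβ1]
        linarith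
  have hpre : IsPreconnected K := hconv.isPreconnected
  have hcont : ContinuousOn (fun z : V × V => f z.2 2 - f z.1 2) K := by
    have hc2 : ContinuousOn (fun x => f x 2) U := continuousOn_pi.mp hfc 2
    apply ContinuousOn.sub
    · apply hc2.comp continuous_snd.continuousOn
      intro z hz
      rw [hK] at hz
      exact hball hz.2.1
    · apply hc2.comp continuous_fst.continuousOn
      intro z hz
      rw [hK] at hz
      exact hball hz.1
  have hne : ∀ z ∈ K, f z.2 2 - f z.1 2 ≠ 0 := by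
    intro z hz h0
    rw [hK] at hz
    obtain ⟨z1, z2, z3, z4⟩ := hz
    have hseg : ∀ t ∈ Icc (0:ℝ) 1, z.1 + t • (z.2 - z.1) ∈ U := fun t ht =>
      hball ((convex_ball a r).add_smul_sub_mem z1 z2 ht)
    have h1 : f z.1 = f z.2 := by
      ext j
      by_cases hj : j = 2
      · subst hj; linarith
      · exact const_vert hU hs hk z3 hseg j hj
    have h2 : z.1 = z.2 := by
      rw [← (hinv.1 z.1 (hball z1)).2, ← (hinv.1 z.2 (hball z2)).2, h1]
    rw [h2] at z4
    exact lt_irrefl _ z4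
  by_cases hex : ∃ z ∈ K, 0 < f z.2 2 - f z.1 2
  · left
    obtain ⟨z, hz, hz0⟩ := hex
    refine ⟨r, hr, fun x hx y hy hxy hlt => ?_⟩
    rw [one_mul]
    by_contra hcon
    push Not at hcon
    have hw : (x, y) ∈ K := by rw [hK]; exact ⟨hx, hy, hxy, hlt⟩
    have h3 := hpre.intermediate_value hw hz hcont
    obtain ⟨w, hwK, hw0⟩ := h3 ⟨hcon, hz0.le⟩
    exact hne w hwK hw0
  · right
    push Not at hex
    refine ⟨r, hr, fun x hx y hy hxy hlt => ?_⟩
    have hw : (x, y) ∈ K := by rw [hK]; exact ⟨hx, hy, hxy, hlt⟩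
    have h4 := hex _ hw
    have h5 := hne _ hw
    have h6 : f y 2 - f x 2 < 0 := lt_of_le_of_ne h4 h5
    linarith

theorem mon_open (f : V → V) (s : ℝ) : IsOpen {a | Mon f s a} := by
  rw [Metric.isOpen_iff]
  rintro a ⟨r, hr, h⟩
  refine ⟨r / 2, by linarith, fun b hb => ⟨r / 2, by linarith, fun x hx y hy => ?_⟩⟩
  have hsub : Metric.ball b (r / 2) ⊆ Metric.ball a r := by
    apply Metric.ball_subset_ball'
    have := Metric.mem_ball.mp hb
    linarith
  exact h x (hsub hx) y (hsub hy)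

theorem mon_disj (f : V → V) (a : V) : ¬ (Mon f 1 a ∧ Mon f (-1) a) := by
  rintro ⟨⟨r, hr, h⟩, r', hr', h'⟩
  obtain ⟨d, hd⟩ : ∃ d : ℝ, d = min r r' / 2 := ⟨_, rfl⟩
  have hmin : 0 < min r r' := lt_min hr hr'
  have hd0 : 0 < d := by rw [hd]; linarith
  have hd1 : d < r := by rw [hd]; linarith [min_le_left r r']
  have hd2 : d < r' := by rw [hd]; linarith [min_le_right r r']
  have hdist : dist (a + d • e2) a = d := by
    rw [dist_eq_norm, add_sub_cancel_left, norm_smul, Real.norm_eq_abs, abs_of_pos hd0]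
    have : ‖e2‖ = 1 := by
      apply le_antisymm
      · rw [pi_norm_le_iff_of_nonneg zero_le_one]
        intro i
        unfold e2
        split_ifs <;> simp
      · have := norm_le_pi_norm e2 2
        simpa [e2] using this
    rw [this, mul_one]
  have hco : ∀ j ≠ (2 : Fin 3), a j = (a + d • e2) j := by
    intro j hj
    simp [e2, hj]
  have hlt : a 2 < (a + d • e2) 2 := by
    simp [e2, hd0]
  have h1 := h a (Metric.mem_ball_self hr) (a + d • e2)
    (by rw [Metric.mem_ball, hdist]; exact hd1) hco hlt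
  have h2 := h' a (Metric.mem_ball_self hr') (a + d • e2)
    (by rw [Metric.mem_ball, hdist]; exact hd2) hco hlt
  linarith

/-- the sign is constant -/
theorem mon_all {U W : Set V} (hU : IsOpen U) (hc : IsConnected U) {f : V → V}
    (hf : IsHomeo U W f)
    (hs : ∀ j ≠ (2 : Fin 3), ContDiffOn ℝ ∞ (fun x => f x j) U)
    (hk : ∀ x ∈ U, ∀ h : V, (∀ j ≠ (2 : Fin 3), fderiv ℝ (fun z => f z j) x h = 0) →
      ∀ j ≠ (2 : Fin 3), h j = 0) :
    (∀ a ∈ U, Mon f 1 a) ∨ ∀ a ∈ U, Mon f (-1) a := by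
  by_contra hcon
  push Not at hcon
  obtain ⟨⟨a, ha, ha1⟩, b, hb, hb1⟩ := hcon
  have ha2 := (mon_or hU hf hs hk ha).resolve_left ha1
  have hb2 := (mon_or hU hf hs hk hb).resolve_right hb1
  have h1 := hc.isPreconnected {a | Mon f 1 a} {a | Mon f (-1) a} (mon_open f 1)
    (mon_open f (-1)) (fun x hx => mon_or hU hf hs hk hx) ⟨b, hb, hb2⟩ ⟨a, ha, ha2⟩
  obtain ⟨c, -, hc1, hc2⟩ := h1
  exact mon_disj f c ⟨hc1, hc2⟩

/-- the matrix `diag (1, 1, s)` -/
def dg (s : ℝ) : Mat := fun i j => if i = j then (if i = 2 then s else 1) else 0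

theorem ap_dg (s : ℝ) (v : V) (i : Fin 3) : ap (dg s) v i = (if i = 2 then s else 1) * v i := by
  unfold ap dg
  simp

theorem fib_of_mon {U : Set V} {f : V → V} {s : ℝ} (hs0 : s ≠ 0)
    (hs : ∀ j ≠ (2 : Fin 3), ContDiffOn ℝ ∞ (fun x => f x j) U)
    (hk : ∀ x ∈ U, ∀ h : V, (∀ j ≠ (2 : Fin 3), fderiv ℝ (fun z => f z j) x h = 0) →
      ∀ j ≠ (2 : Fin 3), h j = 0) (hm : ∀ a ∈ U, Mon f s a) :
    NonSing (dg s) ∧ FibMonotone {2} U (fun x => ap (dg s) (f x)) := by
  have hcomp : ∀ j ≠ (2 : Fin 3), (fun x => ap (dg s) (f x) j) = fun x => f x j := by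
    intro j hj
    funext x
    rw [ap_dg, if_neg hj, one_mul]
  refine ⟨?_, ?_, ?_, ?_⟩
  · intro v hv
    ext i
    have h1 := congrFun hv i
    rw [ap_dg] at h1
    rcases mul_eq_zero.mp h1 with h2 | h2
    · exfalso
      split_ifs at h2
      · exact hs0 h2
      · exact one_ne_zero h2
    · exact h2
  · intro j hj
    have hj' : j ≠ 2 := by simpa using hj
    rw [hcomp j hj']
    exact hs j hj'
  · intro x hx h hh j hj
    have hj' : j ≠ 2 := by simpa using hj
    refine hk x hx h (fun i hi => ?_) j hj'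
    have := hh i (by simpa using hi)
    rwa [hcomp i hi] at this
  · intro a ha
    obtain ⟨r, hr, h⟩ := hm a ha
    refine ⟨r, hr, fun x y hx hy hxy => ?_⟩
    have hball : ∀ z : V, euc (z - a) < r → z ∈ Metric.ball a r := by
      intro z hz
      rw [Metric.mem_ball, dist_eq_norm, pi_norm_lt_iff hr]
      intro i
      refine lt_of_le_of_lt ?_ hz
      rw [Real.norm_eq_abs, ← Real.sqrt_sq_eq_abs]
      unfold euc
      apply Real.sqrt_le_sqrt
      exact Finset.single_le_sum (f := fun i => (z - a) i ^ 2) (fun j _ => sq_nonneg _)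
        (Finset.mem_univ i)
    have hxy' : ∀ j ≠ (2 : Fin 3), x j = y j := fun j hj => hxy j (by simpa using hj)
    have h0 : x 0 - y 0 = 0 := by rw [hxy' 0 (by decide), sub_self]
    have h1 : x 1 - y 1 = 0 := by rw [hxy' 1 (by decide), sub_self]
    show 0 ≤ ∑ i, (x i - y i) * (ap (dg s) (f x) i - ap (dg s) (f y) i)
    rw [Fin.sum_univ_three, h0, h1, zero_mul, zero_mul, zero_add, zero_add, ap_dg, ap_dg,
      if_pos rfl]
    rcases lt_trichotomy (x 2) (y 2) with h2 | h2 | h2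
    · have h3 := h x (hball x hx) y (hball y hy) hxy' h2
      nlinarith
    · rw [h2, sub_self, zero_mul]
    · have h3 := h y (hball y hy) x (hball x hx) (fun j hj => (hxy' j hj).symm) h2
      nlinarith

/-- line preserving homeomorphisms are fibrewise monotone up to a reflection -/
theorem fib_of_lines {U W : Set V} {f : V → V} (hU : IsOpen U) (hc : IsConnected U)
    (hf : IsHomeo U W f) (hs : ∀ j ≠ (2 : Fin 3), ContDiffOn ℝ ∞ (fun x => f x j) U)
    (hk : ∀ x ∈ U, ∀ h : V, (∀ j ≠ (2 : Fin 3), fderiv ℝ (fun z => f z j) x h = 0) →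
      ∀ j ≠ (2 : Fin 3), h j = 0) :
    ∃ A : Mat, NonSing A ∧ FibMonotone {2} U (fun x => ap A (f x)) := by
  rcases mon_all hU hc hf hs hk with h | h
  · exact ⟨dg 1, fib_of_mon one_ne_zero hs hk h⟩
  · exact ⟨dg (-1), fib_of_mon (by norm_num) hs hk h⟩

end Vale.Agent.P073.R2.H524
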