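import Vale.Agent.P073.R2.H524.Lines
import Mathlib.Analysis.Calculus.BumpFunction.Convolution

/-!
# P073: smooth approximation of functions which increase in the vertical direction
-/

set_option autoImplicit false

namespace Vale.Agent.P073.R2.H524

open MeasureTheory Set Filter Topology Vale.Agent.P073.St Vale.Agent.P073.R2.H580
open scoped ContDiff Convolution

theorem deriv_nonneg {F : V → ℝ} {x h : V} (hF : DifferentiableAt ℝ F x)
    (hm : ∀ᶠ t in 𝓝[>] (0:ℝ), F x ≤ F (x + t • h)) : 0 ≤ fderiv ℝ F x h := by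
  have h1 : HasDerivAt (fun t : ℝ => x + t • h) h 0 := by
    have h4 : HasDerivAt (fun t : ℝ => t • h) ((1:ℝ) • h) 0 := (hasDerivAt_id (0:ℝ)).smul_const h
    rw [one_smul] at h4
    exact h4.const_add x
  have h2 : HasDerivAt (fun t : ℝ => F (x + t • h)) (fderiv ℝ F x h) 0 := by
    have h5 : DifferentiableAt ℝ F (x + (0:ℝ) • h) := by rwa [zero_smul, add_zero]
    have h6 := h5.hasFDerivAt.comp_hasDerivAt (0:ℝ) h1
    rw [zero_smul, add_zero] at h6
    exact h6
  have h3 := h2.tendsto_slope_zero_right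
  refine ge_of_tendsto h3 ?_
  filter_upwards [hm, self_mem_nhdsWithin] with t ht ht0
  have ht0' : (0:ℝ) < t := ht0
  rw [smul_eq_mul, zero_add, zero_smul, add_zero]
  exact mul_nonneg (inv_nonneg.mpr ht0'.le) (by linarith)

theorem moll {g : V → ℝ} {b : V} {r : ℝ} (hr : 0 < r) (hg : ContinuousOn g (Metric.ball b r))
    (hm : ∀ x ∈ Metric.ball b r, ∀ t : ℝ, 0 ≤ t → x + t • e2 ∈ Metric.ball b r →
      g x ≤ g (x + t • e2)) {ε : ℝ} (hε : 0 < ε) :
    ∃ W : V → ℝ, ContDiff ℝ ∞ W ∧ (∀ x ∈ Metric.ball b (r / 2), |W x - g x| ≤ ε) ∧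
      ∀ x ∈ Metric.ball b (r / 2), 0 < fderiv ℝ W x e2 := by
  obtain ⟨K, hKdef⟩ : ∃ K : Set V, K = Metric.closedBall b (3 * r / 4) := ⟨_, rfl⟩
  have hK : IsCompact K := by rw [hKdef]; exact isCompact_closedBall _ _
  have hKb : K ⊆ Metric.ball b r := by
    rw [hKdef]; exact Metric.closedBall_subset_ball (by linarith)
  have hgK : ContinuousOn g K := hg.mono hKb
  have huc := hK.uniformContinuousOn_of_continuous hgK
  rw [Metric.uniformContinuousOn_iff] at huc
  obtain ⟨δ, hδ, hδ2⟩ := huc (ε / 2) (by linarith)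
  obtain ⟨q, hq⟩ : ∃ q : V → ℝ, q = K.indicator g := ⟨_, rfl⟩
  have hint : Integrable q volume := by
    rw [hq]
    exact (hgK.integrableOn_compact hK).integrable_indicator hK.measurableSet
  have hqK : ∀ x ∈ K, q x = g x := fun x hx => by rw [hq, Set.indicator_of_mem hx]
  obtain ⟨d, hd⟩ : ∃ d : ℝ, d = min δ (r / 4) := ⟨_, rfl⟩
  have hd0 : 0 < d := by rw [hd]; exact lt_min hδ (by linarith)
  have hd1 : d ≤ δ := by rw [hd]; exact min_le_left _ _
  have hd2 : d ≤ r / 4 := by rw [hd]; exact min_le_right _ _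
  obtain ⟨φ, hφ⟩ : ∃ φ : ContDiffBump (0 : V), φ.rOut = d :=
    ⟨⟨d / 2, d, by linarith, by linarith⟩, rfl⟩
  obtain ⟨W₀, hW₀⟩ : ∃ W₀ : V → ℝ, W₀ = (φ.normed volume ⋆[ContinuousLinearMap.lsmul ℝ ℝ, volume] q) :=
    ⟨_, rfl⟩
  have hsm : ContDiff ℝ ∞ W₀ := by
    rw [hW₀]
    exact φ.hasCompactSupport_normed.contDiff_convolution_left _ φ.contDiff_normed
      hint.locallyIntegrable
  have hball : ∀ x ∈ Metric.ball b (r / 2), ∀ y ∈ Metric.ball x d, y ∈ K := by
    intro x hx y hy
    rw [hKdef, Metric.mem_closedBall]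
    have h1 := dist_triangle y x b
    rw [Metric.mem_ball] at hx hy
    linarith
  have happ : ∀ x ∈ Metric.ball b (r / 2), |W₀ x - g x| ≤ ε / 2 := by
    intro x hx
    have hxK : x ∈ K := hball x hx x (Metric.mem_ball_self hd0)
    have h1 := φ.dist_normed_convolution_le (μ := volume) (g := q) (x₀ := x) (ε := ε / 2)
      hint.aestronglyMeasurable (by
        intro y hy
        rw [hφ] at hy
        have hyK := hball x hx y hy
        rw [hqK y hyK, hqK x hxK]
        exact (hδ2 y hyK x hxK (lt_of_lt_of_le (Metric.mem_ball.mp hy) hd1)).le)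
    rw [← hW₀, hqK x hxK, Real.dist_eq] at h1
    exact h1
  have hmono : ∀ x ∈ Metric.ball b (r / 2), ∀ t : ℝ, 0 ≤ t →
      x + t • e2 ∈ Metric.ball b (r / 2) → W₀ x ≤ W₀ (x + t • e2) := by
    intro x hx t ht hxt
    have hex : ∀ y : V, Integrable (fun z => (ContinuousLinearMap.lsmul ℝ ℝ)
        (φ.normed volume z) (q (y - z))) volume := by
      intro y
      exact φ.hasCompactSupport_normed.convolutionExists_left (ContinuousLinearMap.lsmul ℝ ℝ)
        φ.continuous_normed hint.locallyIntegrable y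
    rw [hW₀]
    unfold convolution
    refine integral_mono (hex x) (hex (x + t • e2)) ?_
    intro z
    show φ.normed volume z • q (x - z) ≤ φ.normed volume z • q (x + t • e2 - z)
    by_cases hz : z ∈ Metric.ball (0:V) d
    · have hz' : ‖z‖ < d := by simpa using hz
      have hy : ∀ y : V, y - z ∈ Metric.ball y d := by
        intro y
        rw [Metric.mem_ball, dist_eq_norm, sub_sub_cancel_left, norm_neg]
        exact hz'
      have h1 := hball x hx (x - z) (hy x)
      have h2 := hball _ hxt (x + t • e2 - z) (hy _)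
      rw [hqK _ h1, hqK _ h2]
      refine mul_le_mul_of_nonneg_left ?_ (φ.nonneg_normed z)
      have h3 := hm (x - z) (hKb h1) t ht
      have h4 : x - z + t • e2 = x + t • e2 - z := by abel
      rw [h4] at h3
      exact h3 (hKb h2)
    · have h0 : φ.normed volume z = 0 := by
        have h5 : z ∉ Function.support (φ.normed volume) := by
          rw [φ.support_normed_eq, hφ]
          exact hz
        simpa using h5
      rw [h0, zero_smul, zero_smul]
  have hder : ∀ x ∈ Metric.ball b (r / 2), 0 ≤ fderiv ℝ W₀ x e2 := by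
    intro x hx
    refine deriv_nonneg (hsm.differentiable (by simp) x) ?_
    have hcont : Tendsto (fun t : ℝ => x + t • e2) (𝓝[>] (0:ℝ)) (𝓝 x) := by
      have h1 : Continuous (fun t : ℝ => x + t • e2) := by fun_prop
      have h2 := h1.tendsto 0
      simp only [zero_smul, add_zero] at h2
      exact h2.mono_left nhdsWithin_le_nhds
    filter_upwards [hcont (Metric.isOpen_ball.mem_nhds hx), self_mem_nhdsWithin] with t ht ht0
    exact hmono x hx t (le_of_lt ht0) ht
  refine ⟨fun x => W₀ x + ε / r * (x 2 - b 2), ?_, ?_, ?_⟩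
  · refine hsm.add (contDiff_const.mul ((contDiff_apply ℝ ℝ (2 : Fin 3)).sub contDiff_const))
  · intro x hx
    have h1 := abs_le.mp (happ x hx)
    have h2 : |x 2 - b 2| ≤ r / 2 := by
      have h3 := norm_le_pi_norm (x - b) 2
      rw [Real.norm_eq_abs, Pi.sub_apply] at h3
      rw [Metric.mem_ball, dist_eq_norm] at hx
      linarith
    have h4 := abs_le.mp h2
    have h5 : 0 < ε / r := div_pos hε hr
    have h6 : ε / r * (r / 2) = ε / 2 := by field_simp
    have h7 := mul_le_mul_of_nonneg_left h4.1 h5.le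
    have h8 := mul_le_mul_of_nonneg_left h4.2 h5.le
    rw [abs_le]
    constructor
    · nlinarith
    · nlinarith
  · intro x hx
    have h1 : HasFDerivAt (fun y : V => ε / r * (y 2 - b 2))
        ((ε / r) • (ContinuousLinearMap.proj (R := ℝ) (φ := fun _ : Fin 3 => ℝ) 2)) x := by
      have h2 : HasFDerivAt (fun y : V => y 2 - b 2)
          (ContinuousLinearMap.proj (R := ℝ) (φ := fun _ : Fin 3 => ℝ) 2) x :=
        ((ContinuousLinearMap.proj (R := ℝ) (φ := fun _ : Fin 3 => ℝ) 2).hasFDerivAt).sub_const _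
      exact h2.const_mul _
    have h3 := ((hsm.differentiable (by simp) x).hasFDerivAt.add h1).fderiv
    have h4 : fderiv ℝ (fun x : V => W₀ x + ε / r * (x 2 - b 2)) x e2
        = fderiv ℝ W₀ x e2 + ε / r := by
      have h5 : (fun x : V => W₀ x + ε / r * (x 2 - b 2))
          = (W₀ + fun y : V => ε / r * (y 2 - b 2)) := rfl
      rw [h5, h3]
      simp [e2]
    rw [h4]
    have h5 : 0 < ε / r := div_pos hε hr
    have h6 := hder x hx
    linarith

end Vale.Agent.P073.R2.H524
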