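import Vale.Agent.P073.R2.H524.LinT
import Vale.Agent.P073.R2.H524.MolA

/-!
# P073: local approximation of the third component (row L1)
-/

set_option autoImplicit false

namespace Vale.Agent.P073.R2.H524

open MeasureTheory Set Filter Topology Vale.Agent.P073.St Vale.Agent.P073.R2.H580
open scoped ContDiff

/-- **local approximation**, with a sign `s` -/
theorem loc_sign {Ω Λ : Set V} {f : V → V} (hΩ : IsOpen Ω) (hf : IsHomeo Ω Λ f) (hI : Ind Ω f)
    {a : V} (ha : a ∈ Ω) :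
    ∃ (s : ℝ) (N : Set V), (s = 1 ∨ s = -1) ∧ IsOpen N ∧ a ∈ N ∧ N ⊆ Ω ∧
      ∀ ε : ℝ, 0 < ε → ∃ w : V → ℝ, ContDiffOn ℝ ∞ w N ∧ (∀ x ∈ N, |w x - s * f x 2| ≤ ε) ∧
        ∀ x ∈ N, 0 < fderiv ℝ w x (cr f x) := by
  obtain ⟨g, hinv, hfc, hgc⟩ := hf
  obtain ⟨k, κ, P, haP, hPΩ, hPe, hpos, hPs, hPt⟩ := chart hΩ hI ha
  have hUo : IsOpen P.target := P.open_target
  obtain ⟨F, hF⟩ : ∃ F : V → V, F = fun y => f (P.symm y) := ⟨_, rfl⟩
  have hmem : ∀ y ∈ P.target, P.symm y ∈ Ω := fun y hy => hPΩ (P.map_target hy)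
  have hF0 : ∀ y ∈ P.target, F y 0 = y 0 := by
    intro y hy
    have h1 := congrFun (P.right_inv hy) 0
    rw [hPe] at h1
    rw [hF]; exact h1
  have hF1 : ∀ y ∈ P.target, F y 1 = y 1 := by
    intro y hy
    have h1 := congrFun (P.right_inv hy) 1
    rw [hPe] at h1
    rw [hF]; exact h1
  have hFc : ContinuousOn F P.target := by
    rw [hF]
    exact hfc.comp P.continuousOn_symm hmem
  have hhom : IsHomeo P.target (F '' P.target) F := by
    refine ⟨fun z => P (g z), ⟨?_, ?_⟩, hFc, ?_⟩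
    · intro y hy
      refine ⟨mem_image_of_mem F hy, ?_⟩
      show P (g (F y)) = y
      rw [hF]
      show P (g (f (P.symm y))) = y
      rw [(hinv.1 _ (hmem y hy)).2, P.right_inv hy]
    · rintro z ⟨y, hy, rfl⟩
      have h1 : P (g (F y)) = y := by
        rw [hF]
        show P (g (f (P.symm y))) = y
        rw [(hinv.1 _ (hmem y hy)).2, P.right_inv hy]
      show P (g (F y)) ∈ P.target ∧ F (P (g (F y))) = F y
      rw [h1]
      exact ⟨hy, rfl⟩
    · refine P.continuousOn.comp (hgc.mono ?_) ?_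
      · rintro z ⟨y, hy, rfl⟩
        rw [hF]
        exact (hinv.1 _ (hmem y hy)).1
      · rintro z ⟨y, hy, rfl⟩
        rw [hF]
        show g (f (P.symm y)) ∈ P.source
        rw [(hinv.1 _ (hmem y hy)).2]
        exact P.map_target hy
  have hev : ∀ j ≠ (2 : Fin 3), ∀ y ∈ P.target, F y j = y j := by
    intro j hj y hy
    fin_cases j
    · exact hF0 y hy
    · exact hF1 y hy
    · exact absurd rfl hj
  have hs : ∀ j ≠ (2 : Fin 3), ContDiffOn ℝ ∞ (fun x => F x j) P.target := by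
    intro j hj
    exact (contDiff_apply ℝ ℝ j).contDiffOn.congr (fun y hy => hev j hj y hy)
  have hk : ∀ x ∈ P.target, ∀ h : V, (∀ j ≠ (2 : Fin 3), fderiv ℝ (fun z => F z j) x h = 0) →
      ∀ j ≠ (2 : Fin 3), h j = 0 := by
    intro x hx h hh j hj
    have h1 := hh j hj
    have h2 : (fun z => F z j) =ᶠ[𝓝 x] fun z => z j := by
      filter_upwards [hUo.mem_nhds hx] with y hy
      exact hev j hj y hy
    rw [h2.fderiv_eq] at h1
    have h3 : HasFDerivAt (fun z : V => z j)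
        (ContinuousLinearMap.proj (R := ℝ) (φ := fun _ : Fin 3 => ℝ) j) x :=
      (ContinuousLinearMap.proj (R := ℝ) (φ := fun _ : Fin 3 => ℝ) j).hasFDerivAt
    rw [h3.fderiv] at h1
    exact h1
  have hbT : P a ∈ P.target := P.map_source haP
  have hmon : ∃ s : ℝ, (s = 1 ∨ s = -1) ∧ Mon F s (P a) := by
    rcases mon_or hUo hhom hs hk hbT with h | h
    · exact ⟨1, Or.inl rfl, h⟩
    · exact ⟨-1, Or.inr rfl, h⟩
  obtain ⟨s, hs1, r₀, hr₀, hM⟩ := hmon
  obtain ⟨r₁, hr₁, hb₁⟩ := Metric.isOpen_iff.mp hUo _ hbT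
  obtain ⟨r, hr⟩ : ∃ r : ℝ, r = min r₀ r₁ := ⟨_, rfl⟩
  have hr0 : 0 < r := by rw [hr]; exact lt_min hr₀ hr₁
  have hrr₀ : r ≤ r₀ := by rw [hr]; exact min_le_left _ _
  have hrr₁ : r ≤ r₁ := by rw [hr]; exact min_le_right _ _
  have hsub : Metric.ball (P a) r ⊆ P.target := (Metric.ball_subset_ball hrr₁).trans hb₁
  have hG : ContinuousOn (fun y => s * F y 2) (Metric.ball (P a) r) :=
    continuousOn_const.mul ((continuousOn_pi.mp hFc 2).mono hsub)
  have hGm : ∀ x ∈ Metric.ball (P a) r, ∀ t : ℝ, 0 ≤ t →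
      x + t • e2 ∈ Metric.ball (P a) r → s * F x 2 ≤ s * F (x + t • e2) 2 := by
    intro x hx t ht hxt
    rcases ht.eq_or_lt with h | h
    · rw [← h, zero_smul, add_zero]
    · have h1 := hM x (Metric.ball_subset_ball hrr₀ hx) (x + t • e2)
        (Metric.ball_subset_ball hrr₀ hxt) (by intro j hj; simp [e2, hj]) (by simp [e2, h])
      linarith
  refine ⟨s, P.source ∩ P ⁻¹' Metric.ball (P a) (r / 2), hs1,
    P.isOpen_inter_preimage Metric.isOpen_ball, ⟨haP, Metric.mem_ball_self (by linarith)⟩,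
    fun x hx => hPΩ hx.1, ?_⟩
  intro ε hε
  obtain ⟨W, hW1, hW2, hW3⟩ := moll hr0 hG hGm hε
  refine ⟨fun x => W (P x), ?_, ?_, ?_⟩
  · exact hW1.comp_contDiffOn (hPs.mono inter_subset_left)
  · intro x hx
    have h1 := hW2 (P x) hx.2
    rw [hF] at h1
    simp only [P.left_inv hx.1] at h1
    exact h1
  · intro x hx
    have hxΩ := hPΩ hx.1
    have h1 : HasFDerivAt (ph f k κ)
        (dph (fderiv ℝ (fun z => f z 0) x) (fderiv ℝ (fun z => f z 1) x) k κ) x :=
      ph_deriv ((hI.1.contDiffAt (hΩ.mem_nhds hxΩ)).differentiableAt (by simp))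
        ((hI.2.1.contDiffAt (hΩ.mem_nhds hxΩ)).differentiableAt (by simp))
    have h2 : (fun x => W (P x)) = W ∘ (ph f k κ) := by
      funext z
      show W (P z) = W (ph f k κ z)
      rw [hPe]
    have h3 : HasFDerivAt W (fderiv ℝ W (ph f k κ x)) (ph f k κ x) :=
      (hW1.differentiable (by simp) _).hasFDerivAt
    have h4 := (h3.comp x h1).fderiv
    rw [h2, h4]
    have h5 : dph (fderiv ℝ (fun z => f z 0) x) (fderiv ℝ (fun z => f z 1) x) k κ (cr f x)
        = (κ * cr f x k) • e2 := by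
      ext i
      rw [cr_eq, dph_cx]
      by_cases hi : i = 2
      · rw [if_pos hi]; simp [e2, hi]
      · rw [if_neg hi]; simp [e2, hi]
    rw [ContinuousLinearMap.comp_apply, h5, map_smul, smul_eq_mul]
    refine mul_pos (hpos x hx.1) ?_
    rw [← hPe]
    exact hW3 (P x) hx.2

/-- **row L1** -/
theorem specL1 : SpecL1 := by
  intro Ω Λ f hΩ hf hI a ha
  obtain ⟨s, N, hs, hN, haN, hNΩ, h⟩ := loc_sign hΩ hf hI ha
  refine ⟨N, hN, haN, hNΩ, ?_⟩
  rcases hs with hs | hs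
  · left
    intro ε hε
    obtain ⟨w, h1, h2, h3⟩ := h ε hε
    refine ⟨w, h1, fun x hx => ?_, h3⟩
    have h4 := h2 x hx
    rwa [hs, one_mul] at h4
  · right
    intro ε hε
    obtain ⟨w, h1, h2, h3⟩ := h ε hε
    refine ⟨w, h1, fun x hx => ?_, h3⟩
    have h4 := h2 x hx
    rw [hs, neg_one_mul] at h4
    exact h4

end Vale.Agent.P073.R2.H524
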