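import Vale.Agent.P073.St

/-!
# P073: a continuous weight which makes a locally integrable function integrable
-/

set_option autoImplicit false

namespace Vale.Agent.P073.R2.H524

open MeasureTheory Set Filter Topology Vale.Agent.P073.St
open scoped ENNReal

/-- the cut-off functions -/
noncomputable def psi (U : Set V) (n : ℕ) (x : V) : ℝ :=
  min 1 (max 0 (Metric.infDist x Uᶜ - 1 / ((n : ℝ) + 1)))

theorem psi_cont (U : Set V) (n : ℕ) : Continuous (psi U n) := by
  unfold psi
  exact continuous_const.min (continuous_const.max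
    ((Metric.continuous_infDist_pt _).sub continuous_const))

theorem psi_nonneg (U : Set V) (n : ℕ) (x : V) : 0 ≤ psi U n x :=
  le_min zero_le_one (le_max_left _ _)

theorem psi_le_one (U : Set V) (n : ℕ) (x : V) : psi U n x ≤ 1 := min_le_left _ _

theorem psi_pos {U : Set V} {n : ℕ} {x : V} (h : 1 / ((n : ℝ) + 1) < Metric.infDist x Uᶜ) :
    0 < psi U n x :=
  lt_min zero_lt_one (lt_of_lt_of_le (sub_pos.mpr h) (le_max_right _ _))

theorem psi_zero {U : Set V} {n : ℕ} {x : V} (h : Metric.infDist x Uᶜ < 1 / ((n : ℝ) + 1)) :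
    psi U n x = 0 := by
  unfold psi
  rw [max_eq_left (by linarith)]
  simp

/-- the compact sets -/
def Kn (U : Set V) (n : ℕ) : Set V := {x | 1 / ((n : ℝ) + 1) ≤ Metric.infDist x Uᶜ}

theorem Kn_sub {U : Set V} (n : ℕ) : Kn U n ⊆ U := by
  intro x hx
  by_contra hxU
  have h1 : Metric.infDist x Uᶜ = 0 := Metric.infDist_zero_of_mem hxU
  have h2 : (0:ℝ) < 1 / ((n : ℝ) + 1) := by positivity
  have h3 : 1 / ((n : ℝ) + 1) ≤ Metric.infDist x Uᶜ := hx
  linarith

theorem Kn_closed (U : Set V) (n : ℕ) : IsClosed (Kn U n) :=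
  isClosed_le continuous_const (Metric.continuous_infDist_pt _)

theorem Kn_compact {U : Set V} (hUb : Bornology.IsBounded U) (n : ℕ) : IsCompact (Kn U n) :=
  Metric.isCompact_of_isClosed_isBounded (Kn_closed U n) (hUb.subset (Kn_sub n))

/-- the coefficients -/
noncomputable def cf (u : V → ℝ≥0∞) (U : Set V) (ε : ℝ) (n : ℕ) : ℝ :=
  (1 / 2) ^ (n + 1) * min 1 (ε / ((∫⁻ x in Kn U n, u x).toReal + 1))

theorem cf_pos (u : V → ℝ≥0∞) (U : Set V) {ε : ℝ} (hε : 0 < ε) (n : ℕ) : 0 < cf u U ε n := by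
  unfold cf
  have h1 : (0:ℝ) ≤ (∫⁻ x in Kn U n, u x).toReal := ENNReal.toReal_nonneg
  apply mul_pos (by positivity)
  exact lt_min zero_lt_one (by positivity)

theorem cf_le (u : V → ℝ≥0∞) (U : Set V) (ε : ℝ) (n : ℕ) : cf u U ε n ≤ (1 / 2) ^ (n + 1) := by
  unfold cf
  calc (1 / 2 : ℝ) ^ (n + 1) * min 1 (ε / ((∫⁻ x in Kn U n, u x).toReal + 1)) ≤
      (1 / 2) ^ (n + 1) * 1 := mul_le_mul_of_nonneg_left (min_le_left _ _) (by positivity)
    _ = _ := mul_one _

theorem cf_mul_le (u : V → ℝ≥0∞) (U : Set V) {ε : ℝ} (hε : 0 < ε) (n : ℕ) :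
    cf u U ε n * (∫⁻ x in Kn U n, u x).toReal ≤ (1 / 2) ^ (n + 1) * ε := by
  unfold cf
  have h1 : (0:ℝ) ≤ (∫⁻ x in Kn U n, u x).toReal := ENNReal.toReal_nonneg
  generalize (∫⁻ x in Kn U n, u x).toReal = M at h1 ⊢
  have h2 : min 1 (ε / (M + 1)) * M ≤ ε := by
    calc min 1 (ε / (M + 1)) * M ≤ ε / (M + 1) * M :=
          mul_le_mul_of_nonneg_right (min_le_right _ _) h1
      _ ≤ ε / (M + 1) * (M + 1) := mul_le_mul_of_nonneg_left (by linarith) (by positivity)
      _ = ε := div_mul_cancel₀ _ (by positivity)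
  calc (1 / 2 : ℝ) ^ (n + 1) * min 1 (ε / (M + 1)) * M =
      (1 / 2) ^ (n + 1) * (min 1 (ε / (M + 1)) * M) := by ring
    _ ≤ _ := mul_le_mul_of_nonneg_left h2 (by positivity)

theorem sum_half : HasSum (fun n : ℕ => (1 / 2 : ℝ) ^ (n + 1)) 1 := by
  have h := hasSum_geometric_two' 1
  convert h using 1
  funext n
  rw [pow_succ, div_pow, one_pow]
  ring

/-- a continuous weight, positive in `U`, with small weighted integral -/
theorem exists_t {U : Set V} (hU : IsOpen U) (hUb : Bornology.IsBounded U) {u : V → ℝ≥0∞}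
    (hu : AEMeasurable u (volume.restrict U))
    (hK : ∀ K : Set V, IsCompact K → K ⊆ U → ∫⁻ x in K, u x ≠ ⊤) {ε : ℝ} (hε : 0 < ε) :
    ∃ t : V → ℝ, Continuous t ∧ (∀ x, 0 ≤ t x ∧ t x ≤ 1) ∧ (∀ x ∈ U, 0 < t x) ∧
      ∫⁻ x in U, ENNReal.ofReal (t x) * u x ≤ ENNReal.ofReal ε := by
  have hcf0 : ∀ n, 0 ≤ cf u U ε n := fun n => (cf_pos u U hε n).le
  have hterm0 : ∀ n x, 0 ≤ cf u U ε n * psi U n x := fun n x =>
    mul_nonneg (hcf0 n) (psi_nonneg U n x)
  have hterm1 : ∀ n x, cf u U ε n * psi U n x ≤ (1 / 2) ^ (n + 1) := fun n x =>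
    (mul_le_of_le_one_right (hcf0 n) (psi_le_one U n x)).trans (cf_le u U ε n)
  have hsum : ∀ x, Summable (fun n => cf u U ε n * psi U n x) := fun x =>
    Summable.of_nonneg_of_le (fun n => hterm0 n x) (fun n => hterm1 n x) sum_half.summable
  have hne : (Uᶜ : Set V).Nonempty := by
    rw [Set.nonempty_compl]
    intro h
    rw [h] at hUb
    exact NormedSpace.unbounded_univ ℝ V hUb
  refine ⟨fun x => ∑' n, cf u U ε n * psi U n x, ?_, ?_, ?_, ?_⟩
  · apply continuous_tsum (u := fun n : ℕ => (1 / 2 : ℝ) ^ (n + 1))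
      (fun n => continuous_const.mul (psi_cont U n)) sum_half.summable
    intro n x
    show ‖cf u U ε n * psi U n x‖ ≤ (1 / 2) ^ (n + 1)
    rw [Real.norm_eq_abs, abs_of_nonneg (hterm0 n x)]
    exact hterm1 n x
  · intro x
    refine ⟨tsum_nonneg (fun n => hterm0 n x), ?_⟩
    rw [← sum_half.tsum_eq]
    exact (hsum x).tsum_le_tsum (fun n => hterm1 n x) sum_half.summable
  · intro x hx
    have h1 : 0 < Metric.infDist x Uᶜ :=
      (hU.isClosed_compl.notMem_iff_infDist_pos hne).mp (fun h => h hx)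
    obtain ⟨n, hn⟩ := exists_nat_one_div_lt h1
    exact (hsum x).tsum_pos (fun n => hterm0 n x) n (mul_pos (cf_pos u U hε n) (psi_pos hn))
  · have h1 : ∀ x, ENNReal.ofReal (∑' n, cf u U ε n * psi U n x) * u x =
        ∑' n, ENNReal.ofReal (cf u U ε n * psi U n x) * u x := by
      intro x
      rw [ENNReal.ofReal_tsum_of_nonneg (fun n => hterm0 n x) (hsum x), ENNReal.tsum_mul_right]
    simp only [h1]
    have hmeas : ∀ n, AEMeasurable (fun x => ENNReal.ofReal (cf u U ε n * psi U n x) * u x)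
        (volume.restrict U) := by
      intro n
      have hc : Continuous (fun x => cf u U ε n * psi U n x) :=
        continuous_const.mul (psi_cont U n)
      exact (hc.measurable.ennreal_ofReal.aemeasurable).mul hu
    rw [lintegral_tsum hmeas]
    have h2 : ∀ n, ∫⁻ x in U, ENNReal.ofReal (cf u U ε n * psi U n x) * u x ≤
        ENNReal.ofReal ((1 / 2) ^ (n + 1) * ε) := by
      intro n
      have h3 : ∀ x, ENNReal.ofReal (cf u U ε n * psi U n x) * u x ≤
          (Kn U n).indicator (fun x => ENNReal.ofReal (cf u U ε n) * u x) x := by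
        intro x
        by_cases hx : x ∈ Kn U n
        · rw [Set.indicator_of_mem hx]
          gcongr
          exact mul_le_of_le_one_right (hcf0 n) (psi_le_one U n x)
        · rw [Set.indicator_of_notMem hx]
          have h4 : Metric.infDist x Uᶜ < 1 / ((n : ℝ) + 1) := not_le.mp hx
          rw [psi_zero h4, mul_zero, ENNReal.ofReal_zero, zero_mul]
      calc ∫⁻ x in U, ENNReal.ofReal (cf u U ε n * psi U n x) * u x ≤
          ∫⁻ x in U, (Kn U n).indicator (fun x => ENNReal.ofReal (cf u U ε n) * u x) x :=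
            lintegral_mono h3
        _ ≤ ∫⁻ x, (Kn U n).indicator (fun x => ENNReal.ofReal (cf u U ε n) * u x) x :=
            setLIntegral_le_lintegral _ _
        _ = ∫⁻ x in Kn U n, ENNReal.ofReal (cf u U ε n) * u x :=
            lintegral_indicator (Kn_closed U n).measurableSet _
        _ = ENNReal.ofReal (cf u U ε n) * ∫⁻ x in Kn U n, u x :=
            lintegral_const_mul' _ _ ENNReal.ofReal_ne_top
        _ = ENNReal.ofReal (cf u U ε n) * ENNReal.ofReal (∫⁻ x in Kn U n, u x).toReal := by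
            rw [ENNReal.ofReal_toReal (hK _ (Kn_compact hUb n) (Kn_sub n))]
        _ = ENNReal.ofReal (cf u U ε n * (∫⁻ x in Kn U n, u x).toReal) := by
            rw [ENNReal.ofReal_mul (hcf0 n)]
        _ ≤ _ := ENNReal.ofReal_le_ofReal (cf_mul_le u U hε n)
    refine (ENNReal.tsum_le_tsum h2).trans (le_of_eq ?_)
    rw [← ENNReal.ofReal_tsum_of_nonneg (fun n => by positivity)
      (sum_half.summable.mul_right ε), tsum_mul_right, sum_half.tsum_eq, one_mul]

end Vale.Agent.P073.R2.H524
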