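import Vale.Agent.P073.R2.H580.SpecT
import Mathlib.Analysis.Calculus.InverseFunctionTheorem.ContDiff

/-!
# P073: linear algebra and the chart for two smooth independent components
-/

set_option autoImplicit false

namespace Vale.Agent.P073.R2.H524

open MeasureTheory Set Filter Topology Vale.Agent.P073.St Vale.Agent.P073.R2.H580
open scoped ContDiff

/-- the cross product of two linear forms -/
noncomputable def cx (A B : V →L[ℝ] ℝ) : V :=
  ![A (eb 1) * B (eb 2) - A (eb 2) * B (eb 1), A (eb 2) * B (eb 0) - A (eb 0) * B (eb 2),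
    A (eb 0) * B (eb 1) - A (eb 1) * B (eb 0)]

theorem cr_eq (f : V → V) (x : V) :
    cr f x = cx (fderiv ℝ (fun z => f z 0) x) (fderiv ℝ (fun z => f z 1) x) := rfl

theorem lin_expand (A : V →L[ℝ] ℝ) (h : V) :
    A h = A (eb 0) * h 0 + A (eb 1) * h 1 + A (eb 2) * h 2 := by
  have h1 : h = h 0 • eb 0 + h 1 • eb 1 + h 2 • eb 2 := by
    ext i
    fin_cases i <;> simp [eb]
  conv_lhs => rw [h1]
  rw [map_add, map_add, map_smul, map_smul, map_smul]
  simp only [smul_eq_mul]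
  ring

theorem cx_0 (A B : V →L[ℝ] ℝ) : cx A B 0 = A (eb 1) * B (eb 2) - A (eb 2) * B (eb 1) := rfl
theorem cx_1 (A B : V →L[ℝ] ℝ) : cx A B 1 = A (eb 2) * B (eb 0) - A (eb 0) * B (eb 2) := rfl
theorem cx_2 (A B : V →L[ℝ] ℝ) : cx A B 2 = A (eb 0) * B (eb 1) - A (eb 1) * B (eb 0) := rfl

theorem cx_left (A B : V →L[ℝ] ℝ) : A (cx A B) = 0 := by
  rw [lin_expand, cx_0, cx_1, cx_2]; ring

theorem cx_right (A B : V →L[ℝ] ℝ) : B (cx A B) = 0 := by
  rw [lin_expand, cx_0, cx_1, cx_2]; ring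

theorem cx_ne {A B : V →L[ℝ] ℝ} (hI : ∀ s t : ℝ, s • A + t • B = 0 → s = 0 ∧ t = 0) :
    ∃ k, cx A B k ≠ 0 := by
  by_contra hcon
  push Not at hcon
  have h0 := hcon 0
  have h1 := hcon 1
  have h2 := hcon 2
  rw [cx_0] at h0
  rw [cx_1] at h1
  rw [cx_2] at h2
  have key : ∀ i : Fin 3, A (eb i) = 0 := by
    intro i
    have h3 : B (eb i) • A + (-A (eb i)) • B = 0 := by
      ext h
      show B (eb i) * A h + (-A (eb i)) * B h = 0
      rw [lin_expand A h, lin_expand B h]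
      fin_cases i
      · show B (eb 0) * (A (eb 0) * h 0 + A (eb 1) * h 1 + A (eb 2) * h 2)
          + -A (eb 0) * (B (eb 0) * h 0 + B (eb 1) * h 1 + B (eb 2) * h 2) = 0
        linear_combination (-h 1) * h2 + h 2 * h1
      · show B (eb 1) * (A (eb 0) * h 0 + A (eb 1) * h 1 + A (eb 2) * h 2)
          + -A (eb 1) * (B (eb 0) * h 0 + B (eb 1) * h 1 + B (eb 2) * h 2) = 0
        linear_combination (h 0) * h2 - h 2 * h0
      · show B (eb 2) * (A (eb 0) * h 0 + A (eb 1) * h 1 + A (eb 2) * h 2)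
          + -A (eb 2) * (B (eb 0) * h 0 + B (eb 1) * h 1 + B (eb 2) * h 2) = 0
        linear_combination (-h 0) * h1 + h 1 * h0
    have h4 := (hI _ _ h3).2
    linarith
  have h5 : A = 0 := by
    ext h
    rw [lin_expand A h, key 0, key 1, key 2]
    simp
  have h6 := (hI 1 0 (by rw [h5]; simp)).1
  exact one_ne_zero h6

theorem cx_par {A B : V →L[ℝ] ℝ} {h : V} (hA : A h = 0) (hB : B h = 0) (i j : Fin 3) :
    cx A B i * h j = cx A B j * h i := by
  rw [lin_expand] at hA hB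
  have e01 : cx A B 0 * h 1 = cx A B 1 * h 0 := by
    rw [cx_0, cx_1]; linear_combination B (eb 2) * hA - A (eb 2) * hB
  have e12 : cx A B 1 * h 2 = cx A B 2 * h 1 := by
    rw [cx_1, cx_2]; linear_combination B (eb 0) * hA - A (eb 0) * hB
  have e20 : cx A B 2 * h 0 = cx A B 0 * h 2 := by
    rw [cx_2, cx_0]; linear_combination B (eb 1) * hA - A (eb 1) * hB
  fin_cases i <;> fin_cases j
  · rfl
  · exact e01
  · exact e20.symm
  · exact e01.symm
  · rfl
  · exact e12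
  · exact e20
  · exact e12.symm
  · rfl

/-- the chart: the first two components and a coordinate -/
noncomputable def ph (f : V → V) (k : Fin 3) (κ : ℝ) (x : V) : V := ![f x 0, f x 1, κ * x k]

/-- its derivative -/
noncomputable def dph (A B : V →L[ℝ] ℝ) (k : Fin 3) (κ : ℝ) : V →L[ℝ] V :=
  ContinuousLinearMap.pi ![A, B, κ • ContinuousLinearMap.proj (R := ℝ) (φ := fun _ : Fin 3 => ℝ) k]

theorem ph_deriv {f : V → V} {k : Fin 3} {κ : ℝ} {x : V}
    (h0 : DifferentiableAt ℝ (fun z => f z 0) x) (h1 : DifferentiableAt ℝ (fun z => f z 1) x) :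
    HasFDerivAt (ph f k κ)
      (dph (fderiv ℝ (fun z => f z 0) x) (fderiv ℝ (fun z => f z 1) x) k κ) x := by
  unfold dph
  rw [hasFDerivAt_pi']
  intro i
  fin_cases i
  · exact h0.hasFDerivAt
  · exact h1.hasFDerivAt
  · exact ((ContinuousLinearMap.proj (R := ℝ) (φ := fun _ : Fin 3 => ℝ) k).hasFDerivAt).const_mul κ

theorem dph_inj {A B : V →L[ℝ] ℝ} {k : Fin 3} {κ : ℝ} (hκ : κ * cx A B k ≠ 0) :
    Function.Injective (dph A B k κ) := by
  rw [injective_iff_map_eq_zero]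
  intro h hh
  have hA : A h = 0 := congrFun hh 0
  have hB : B h = 0 := congrFun hh 1
  have hk : κ * h k = 0 := congrFun hh 2
  have hk0 : h k = 0 := by
    rcases mul_eq_zero.mp hk with h1 | h1
    · exact absurd (by rw [h1, zero_mul]) hκ
    · exact h1
  have hc : cx A B k ≠ 0 := fun h1 => hκ (by rw [h1, mul_zero])
  ext j
  have h2 := cx_par hA hB k j
  rw [hk0, mul_zero] at h2
  rcases mul_eq_zero.mp h2 with h3 | h3
  · exact absurd h3 hc
  · exact h3

theorem dph_equiv {A B : V →L[ℝ] ℝ} {k : Fin 3} {κ : ℝ} (hκ : κ * cx A B k ≠ 0) :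
    ∃ e : V ≃L[ℝ] V, (e : V →L[ℝ] V) = dph A B k κ := by
  refine ⟨(LinearEquiv.ofInjectiveEndo (dph A B k κ : V →ₗ[ℝ] V)
    (dph_inj hκ)).toContinuousLinearEquiv, ?_⟩
  ext h i
  rfl

theorem dph_cx (A B : V →L[ℝ] ℝ) (k : Fin 3) (κ : ℝ) (i : Fin 3) :
    dph A B k κ (cx A B) i = if i = 2 then κ * cx A B k else 0 := by
  fin_cases i
  · exact cx_left A B
  · exact cx_right A B
  · rfl

/-- the function `x ↦ cr f x k` is continuous -/
theorem cr_cont {Ω : Set V} {f : V → V} (hΩ : IsOpen Ω) (hI : Ind Ω f) (k : Fin 3) :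
    ContinuousOn (fun x => cr f x k) Ω := by
  obtain ⟨h0, h1, -⟩ := hI
  have c0 : ContinuousOn (fun x => fderiv ℝ (fun z => f z 0) x) Ω :=
    h0.continuousOn_fderiv_of_isOpen hΩ (by simp)
  have c1 : ContinuousOn (fun x => fderiv ℝ (fun z => f z 1) x) Ω :=
    h1.continuousOn_fderiv_of_isOpen hΩ (by simp)
  have d0 : ∀ j : Fin 3, ContinuousOn (fun x => fderiv ℝ (fun z => f z 0) x (eb j)) Ω :=
    fun j => c0.clm_apply continuousOn_const
  have d1 : ∀ j : Fin 3, ContinuousOn (fun x => fderiv ℝ (fun z => f z 1) x (eb j)) Ω :=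
    fun j => c1.clm_apply continuousOn_const
  fin_cases k
  · exact ((d0 1).mul (d1 2)).sub ((d0 2).mul (d1 1))
  · exact ((d0 2).mul (d1 0)).sub ((d0 0).mul (d1 2))
  · exact ((d0 0).mul (d1 1)).sub ((d0 1).mul (d1 0))

/-- **the chart** at a point -/
theorem chart {Ω : Set V} {f : V → V} (hΩ : IsOpen Ω) (hI : Ind Ω f) {a : V} (ha : a ∈ Ω) :
    ∃ (k : Fin 3) (κ : ℝ) (P : OpenPartialHomeomorph V V), a ∈ P.source ∧ P.source ⊆ Ω ∧
      (∀ x, P x = ph f k κ x) ∧ (∀ x ∈ P.source, 0 < κ * cr f x k) ∧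
      ContDiffOn ℝ ∞ P P.source ∧ ContDiffOn ℝ ∞ P.symm P.target := by
  obtain ⟨k, hk⟩ := cx_ne (hI.2.2 a ha)
  rw [← cr_eq] at hk
  obtain ⟨κ, hκ⟩ : ∃ κ : ℝ, κ = cr f a k := ⟨_, rfl⟩
  have hdiff : ∀ x ∈ Ω, HasFDerivAt (ph f k κ)
      (dph (fderiv ℝ (fun z => f z 0) x) (fderiv ℝ (fun z => f z 1) x) k κ) x := fun x hx =>
    ph_deriv ((hI.1.contDiffAt (hΩ.mem_nhds hx)).differentiableAt (by simp))
      ((hI.2.1.contDiffAt (hΩ.mem_nhds hx)).differentiableAt (by simp))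
  have hsm : ContDiffOn ℝ ∞ (ph f k κ) Ω := by
    rw [contDiffOn_pi]
    intro i
    fin_cases i
    · exact hI.1
    · exact hI.2.1
    · exact (contDiff_const.mul (contDiff_apply ℝ ℝ k)).contDiffOn
  obtain ⟨O, hO⟩ : ∃ O : Set V, O = Ω ∩ (fun x => κ * cr f x k) ⁻¹' (Ioi 0) := ⟨_, rfl⟩
  have hOo : IsOpen O := by
    rw [hO]
    exact (continuousOn_const.mul (cr_cont hΩ hI k)).isOpen_inter_preimage hΩ isOpen_Ioi
  have hOsub : O ⊆ Ω := by rw [hO]; exact inter_subset_left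
  have haO : a ∈ O := by
    rw [hO]
    refine ⟨ha, ?_⟩
    show 0 < κ * cr f a k
    rw [← hκ]
    rw [← hκ] at hk
    exact mul_self_pos.mpr hk
  have heq : ∀ x ∈ O, ∃ e : V ≃L[ℝ] V, HasFDerivAt (ph f k κ) (e : V →L[ℝ] V) x := by
    intro x hx
    rw [hO] at hx
    have hx2 : 0 < κ * cr f x k := hx.2
    obtain ⟨e, he⟩ := dph_equiv (A := fderiv ℝ (fun z => f z 0) x)
      (B := fderiv ℝ (fun z => f z 1) x) (k := k) (κ := κ) (by rw [← cr_eq]; exact hx2.ne')
    exact ⟨e, by rw [he]; exact hdiff x hx.1⟩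
  obtain ⟨e, he⟩ := heq a haO
  have hca : ContDiffAt ℝ ∞ (ph f k κ) a := hsm.contDiffAt (hΩ.mem_nhds ha)
  obtain ⟨P₀, hP₀⟩ : ∃ P₀ : OpenPartialHomeomorph V V,
      P₀ = hca.toOpenPartialHomeomorph (ph f k κ) he (by simp) := ⟨_, rfl⟩
  have hP₁ : (P₀ : V → V) = ph f k κ := by rw [hP₀]; rfl
  have hP₂ : a ∈ P₀.source := by
    rw [hP₀]; exact hca.mem_toOpenPartialHomeomorph_source he (by simp)
  refine ⟨k, κ, P₀.restrOpen O hOo, ?_, ?_, ?_, ?_, ?_, ?_⟩
  · rw [P₀.restrOpen_source]; exact ⟨hP₂, haO⟩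
  · rw [P₀.restrOpen_source]
    intro x hx
    have := hx.2
    rw [hO] at this
    exact this.1
  · intro x
    rw [OpenPartialHomeomorph.coe_restrOpen, hP₁]
  · rw [P₀.restrOpen_source]
    intro x hx
    have := hx.2
    rw [hO] at this
    exact this.2
  · rw [P₀.restrOpen_source, OpenPartialHomeomorph.coe_restrOpen, hP₁]
    refine hsm.mono ?_
    intro x hx
    have := hx.2
    rw [hO] at this
    exact this.1
  · intro y hy
    apply ContDiffAt.contDiffWithinAt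
    have hy1 : (P₀.restrOpen O hOo).symm y ∈ (P₀.restrOpen O hOo).source :=
      (P₀.restrOpen O hOo).map_target hy
    have hy2 : (P₀.restrOpen O hOo).symm y ∈ O := by
      rw [P₀.restrOpen_source] at hy1
      exact hy1.2
    obtain ⟨e', he'⟩ := heq _ hy2
    have hcoe : ((P₀.restrOpen O hOo : OpenPartialHomeomorph V V) : V → V) = ph f k κ := by
      rw [OpenPartialHomeomorph.coe_restrOpen, hP₁]
    refine (P₀.restrOpen O hOo).contDiffAt_symm hy (f₀' := e') ?_ ?_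
    · rw [hcoe]; exact he'
    · rw [hcoe]
      exact hsm.contDiffAt (hΩ.mem_nhds (hOsub hy2))

end Vale.Agent.P073.R2.H524
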